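/-
Row 211, cluster B (S0326), helper21: packing of rotated lattice squares in the plane and
integral bookkeeping.  Mathlib only.
-/
import Mathlib

set_option autoImplicit false
open MeasureTheory

namespace Crest.Agent.Helper21

/-- The Euclidean plane. -/
abbrev E2 : Type := EuclideanSpace ℝ (Fin 2)

section frame
variable (v w : E2) (hv : ‖v‖ = 1) (hw : ‖w‖ = 1) (hvw : inner ℝ v w = 0)

include hv hw hvw in
theorem orthonormal_frame : Orthonormal ℝ ![v, w] := by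
  constructor
  · intro i
    fin_cases i <;> simp [hv, hw]
  · intro i j hij
    fin_cases i <;> fin_cases j <;> simp_all [real_inner_comm]

/-- The orthonormal basis `(v, w)` of the plane. -/
noncomputable def frameBasis : OrthonormalBasis (Fin 2) ℝ E2 :=
  (basisOfOrthonormalOfCardEqFinrank (orthonormal_frame v w hv hw hvw) (by simp)).toOrthonormalBasis
    (by
      rw [coe_basisOfOrthonormalOfCardEqFinrank]
      exact orthonormal_frame v w hv hw hvw)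

theorem frameBasis_zero : frameBasis v w hv hw hvw 0 = v := by
  simp [frameBasis]

theorem frameBasis_one : frameBasis v w hv hw hvw 1 = w := by
  simp [frameBasis]

include hv hw hvw in
/-- expansion in the frame -/
theorem frame_expand (z : E2) : z = inner ℝ v z • v + inner ℝ w z • w := by
  have h := (frameBasis v w hv hw hvw).sum_repr z
  rw [Fin.sum_univ_two] at h
  simp only [OrthonormalBasis.repr_apply_apply, frameBasis_zero, frameBasis_one] at h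
  exact h.symm

include hv hw hvw in
theorem frame_norm_sq (z : E2) : ‖z‖ ^ 2 = inner ℝ v z ^ 2 + inner ℝ w z ^ 2 := by
  have h := (frameBasis v w hv hw hvw).sum_sq_norm_inner_right z
  rw [Fin.sum_univ_two] at h
  simp only [frameBasis_zero, frameBasis_one, Real.norm_eq_abs, sq_abs] at h
  exact h.symm

end frame


/-! ### rotated open squares -/

/-- The open square with centre `c`, side `ℓ` and sides parallel to `v`, `w`. -/
def osq (v w c : E2) (ℓ : ℝ) : Set E2 :=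
  {z | |inner ℝ v (z - c)| < ℓ / 2 ∧ |inner ℝ w (z - c)| < ℓ / 2}

theorem isOpen_osq (v w c : E2) (ℓ : ℝ) : IsOpen (osq v w c ℓ) := by
  have h1 : Continuous fun z : E2 => |inner ℝ v (z - c)| := by fun_prop
  have h2 : Continuous fun z : E2 => |inner ℝ w (z - c)| := by fun_prop
  exact (isOpen_lt h1 continuous_const).inter (isOpen_lt h2 continuous_const)

/-- the coordinate box in `E2` -/
def cbox (ℓ : ℝ) : Set E2 := {y | |y 0| < ℓ / 2 ∧ |y 1| < ℓ / 2}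

theorem volume_cbox (ℓ : ℝ) (hℓ : 0 ≤ ℓ) : volume (cbox ℓ) = ENNReal.ofReal (ℓ ^ 2) := by
  have h1 : cbox ℓ = (@WithLp.ofLp 2 (Fin 2 → ℝ)) ⁻¹'
      (Set.pi Set.univ (fun _ : Fin 2 => Set.Ioo (-(ℓ / 2)) (ℓ / 2))) := by
    ext y
    simp only [cbox, Set.mem_ofPred_eq, Set.mem_preimage, Set.mem_pi, Set.mem_univ, forall_true_left,
      Set.mem_Ioo, Fin.forall_fin_two, abs_lt]
  rw [h1, (PiLp.volume_preserving_ofLp (Fin 2)).measure_preimage
    (MeasurableSet.univ_pi fun _ => measurableSet_Ioo).nullMeasurableSet, Real.volume_pi_Ioo]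
  simp only [Finset.prod_const, Finset.card_univ, Fintype.card_fin]
  rw [← ENNReal.ofReal_pow (by linarith)]
  congr 1
  ring

theorem volume_osq (v w : E2) (hv : ‖v‖ = 1) (hw : ‖w‖ = 1) (hvw : inner ℝ v w = 0) (c : E2)
    (ℓ : ℝ) (hℓ : 0 ≤ ℓ) : volume (osq v w c ℓ) = ENNReal.ofReal (ℓ ^ 2) := by
  set b := frameBasis v w hv hw hvw with hb
  have h1 : osq v w c ℓ = (fun z => b.repr (z - c)) ⁻¹' cbox ℓ := by
    ext z
    simp only [osq, cbox, Set.mem_ofPred_eq, Set.mem_preimage, OrthonormalBasis.repr_apply_apply, hb,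
      frameBasis_zero, frameBasis_one]
  have hmp : MeasurePreserving (fun z : E2 => b.repr (z - c)) volume volume :=
    b.measurePreserving_repr.comp (measurePreserving_sub_right volume c)
  have hm : MeasurableSet (cbox ℓ) := by
    have c0 : Continuous fun y : E2 => |y 0| :=
      continuous_abs.comp (EuclideanSpace.proj (0 : Fin 2)).continuous
    have c1 : Continuous fun y : E2 => |y 1| :=
      continuous_abs.comp (EuclideanSpace.proj (1 : Fin 2)).continuous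
    exact ((isOpen_lt c0 continuous_const).inter (isOpen_lt c1 continuous_const)).measurableSet
  rw [h1, hmp.measure_preimage hm.nullMeasurableSet, volume_cbox ℓ hℓ]

/-- lattice point -/
def lpt (v w p₀ : E2) (ℓ : ℝ) (ij : ℤ × ℤ) : E2 := p₀ + (ℓ * ij.1) • v + (ℓ * ij.2) • w

theorem osq_disjoint (v w : E2) (hv : ‖v‖ = 1) (hw : ‖w‖ = 1) (hvw : inner ℝ v w = 0) (p₀ : E2)
    (ℓ : ℝ) (hℓ : 0 < ℓ) (ij ij' : ℤ × ℤ) (hne : ij ≠ ij') :
    Disjoint (osq v w (lpt v w p₀ ℓ ij) ℓ) (osq v w (lpt v w p₀ ℓ ij') ℓ) := by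
  rw [Set.disjoint_left]
  intro z hz hz'
  apply hne
  have hvv : inner ℝ v v = (1 : ℝ) := by rw [real_inner_self_eq_norm_sq, hv]; norm_num
  have hww : inner ℝ w w = (1 : ℝ) := by rw [real_inner_self_eq_norm_sq, hw]; norm_num
  have hwv : inner ℝ w v = (0 : ℝ) := by rw [real_inner_comm]; exact hvw
  have e1 : ∀ kl : ℤ × ℤ, inner ℝ v (z - lpt v w p₀ ℓ kl) = inner ℝ v (z - p₀) - ℓ * kl.1 := by
    intro kl
    unfold lpt
    rw [show z - (p₀ + (ℓ * (kl.1 : ℝ)) • v + (ℓ * (kl.2 : ℝ)) • w)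
        = (z - p₀) - (ℓ * (kl.1 : ℝ)) • v - (ℓ * (kl.2 : ℝ)) • w by abel]
    rw [inner_sub_right, inner_sub_right, inner_smul_right, inner_smul_right, hvv, hvw]
    ring
  have e2 : ∀ kl : ℤ × ℤ, inner ℝ w (z - lpt v w p₀ ℓ kl) = inner ℝ w (z - p₀) - ℓ * kl.2 := by
    intro kl
    unfold lpt
    rw [show z - (p₀ + (ℓ * (kl.1 : ℝ)) • v + (ℓ * (kl.2 : ℝ)) • w)
        = (z - p₀) - (ℓ * (kl.1 : ℝ)) • v - (ℓ * (kl.2 : ℝ)) • w by abel]
    rw [inner_sub_right, inner_sub_right, inner_smul_right, inner_smul_right, hww, hwv]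
    ring
  obtain ⟨h1, h2⟩ := hz
  obtain ⟨h1', h2'⟩ := hz'
  rw [e1] at h1 h1'
  rw [e2] at h2 h2'
  rw [abs_lt] at h1 h1' h2 h2'
  have key : ∀ a b : ℤ, ∀ x : ℝ, (-(ℓ / 2) < x - ℓ * a ∧ x - ℓ * a < ℓ / 2) →
      (-(ℓ / 2) < x - ℓ * b ∧ x - ℓ * b < ℓ / 2) → a = b := by
    intro a b x ha hb
    have h3 : ℓ * ((a : ℝ) - b) < ℓ * 1 := by nlinarith [ha.1, ha.2, hb.1, hb.2]
    have h4 : ℓ * (-1) < ℓ * ((a : ℝ) - b) := by nlinarith [ha.1, ha.2, hb.1, hb.2]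
    have h5 : ((a : ℝ) - b) < 1 := lt_of_mul_lt_mul_left h3 hℓ.le
    have h6 : (-1 : ℝ) < (a : ℝ) - b := lt_of_mul_lt_mul_left h4 hℓ.le
    have h7 : (a - b : ℤ) < 1 := by exact_mod_cast h5
    have h8 : (-1 : ℤ) < a - b := by exact_mod_cast h6
    omega
  exact Prod.ext (key _ _ _ h1 h1') (key _ _ _ h2 h2')

theorem osq_subset_ball (v w : E2) (hv : ‖v‖ = 1) (hw : ‖w‖ = 1) (hvw : inner ℝ v w = 0) (c : E2)
    (ℓ : ℝ) (hℓ : 0 < ℓ) : osq v w c ℓ ⊆ Metric.closedBall c ℓ := by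
  intro z hz
  obtain ⟨h1, h2⟩ := hz
  rw [Metric.mem_closedBall, dist_eq_norm]
  have h := frame_norm_sq v w hv hw hvw (z - c)
  have h3 : inner ℝ v (z - c) ^ 2 < (ℓ / 2) ^ 2 := sq_lt_sq' (abs_lt.mp h1).1 (abs_lt.mp h1).2
  have h4 : inner ℝ w (z - c) ^ 2 < (ℓ / 2) ^ 2 := sq_lt_sq' (abs_lt.mp h2).1 (abs_lt.mp h2).2
  have h5 : ‖z - c‖ ^ 2 ≤ ℓ ^ 2 := by nlinarith
  exact abs_le_of_sq_le_sq' h5 hℓ.le |>.2 |> fun h => by simpa using h

/-- Packing, internal form. -/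
theorem packing_aux (v w : E2) (hv : ‖v‖ = 1) (hw : ‖w‖ = 1) (hvw : inner ℝ v w = 0) (p₀ : E2)
    (ℓ : ℝ) (hℓ : 0 < ℓ) (S : Set E2) (δ : ℝ) (I : Finset (ℤ × ℤ))
    (hI : ∀ ij ∈ I, ∃ q ∈ S, dist (lpt v w p₀ ℓ ij) q ≤ δ) :
    ENNReal.ofReal (I.card * ℓ ^ 2) ≤ volume (Metric.cthickening (δ + ℓ) S) := by
  have hsub : (⋃ ij ∈ I, osq v w (lpt v w p₀ ℓ ij) ℓ) ⊆ Metric.cthickening (δ + ℓ) S := by
    intro z hz
    simp only [Set.mem_iUnion] at hz
    obtain ⟨ij, hij, hz⟩ := hz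
    obtain ⟨q, hq, hd⟩ := hI ij hij
    have h1 := osq_subset_ball v w hv hw hvw _ ℓ hℓ hz
    rw [Metric.mem_closedBall] at h1
    refine Metric.mem_cthickening_of_dist_le z q (δ + ℓ) S hq ?_
    calc dist z q ≤ dist z (lpt v w p₀ ℓ ij) + dist (lpt v w p₀ ℓ ij) q := dist_triangle _ _ _
      _ ≤ ℓ + δ := add_le_add h1 hd
      _ = δ + ℓ := add_comm _ _
  have hvol : volume (⋃ ij ∈ I, osq v w (lpt v w p₀ ℓ ij) ℓ)
      = ∑ ij ∈ I, volume (osq v w (lpt v w p₀ ℓ ij) ℓ) := by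
    refine measure_biUnion_finset ?_ (fun ij _ => (isOpen_osq _ _ _ _).measurableSet)
    intro ij _ ij' _ hne
    exact osq_disjoint v w hv hw hvw p₀ ℓ hℓ ij ij' hne
  calc ENNReal.ofReal (I.card * ℓ ^ 2)
      = ∑ ij ∈ I, volume (osq v w (lpt v w p₀ ℓ ij) ℓ) := by
        simp only [volume_osq v w hv hw hvw _ ℓ hℓ.le, Finset.sum_const, nsmul_eq_mul]
        rw [ENNReal.ofReal_mul (by positivity), ENNReal.ofReal_natCast]
    _ = volume (⋃ ij ∈ I, osq v w (lpt v w p₀ ℓ ij) ℓ) := hvol.symm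
    _ ≤ volume (Metric.cthickening (δ + ℓ) S) := measure_mono hsub

/-- **(P2) Packing.** If all the lattice points `p₀ + ℓ i v + ℓ j w` with `(i, j) ∈ I` are within
`δ` of `S`, then `card I * ℓ²` is at most the volume of the closed `(δ + ℓ)`-thickening of `S`. -/
theorem packing (v w : E2) (hv : ‖v‖ = 1) (hw : ‖w‖ = 1) (hvw : inner ℝ v w = 0) (p₀ : E2)
    (ℓ : ℝ) (hℓ : 0 < ℓ) (S : Set E2) (δ : ℝ) (_hδ : 0 ≤ δ) (I : Finset (ℤ × ℤ))
    (hI : ∀ ij ∈ I, ∃ q ∈ S, dist (p₀ + (ℓ * ij.1) • v + (ℓ * ij.2) • w) q ≤ δ) :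
    ENNReal.ofReal (I.card * ℓ ^ 2) ≤ volume (Metric.cthickening (δ + ℓ) S) :=
  packing_aux v w hv hw hvw p₀ ℓ hℓ S δ I hI

/-- Real-number form of the packing bound (the thickening of a bounded set has finite volume). -/
theorem packing_real (v w : E2) (hv : ‖v‖ = 1) (hw : ‖w‖ = 1) (hvw : inner ℝ v w = 0) (p₀ : E2)
    (ℓ : ℝ) (hℓ : 0 < ℓ) (S : Set E2) (hS : Bornology.IsBounded S) (δ : ℝ) (hδ : 0 ≤ δ)
    (I : Finset (ℤ × ℤ))
    (hI : ∀ ij ∈ I, ∃ q ∈ S, dist (p₀ + (ℓ * ij.1) • v + (ℓ * ij.2) • w) q ≤ δ) :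
    (I.card : ℝ) * ℓ ^ 2 ≤ (volume (Metric.cthickening (δ + ℓ) S)).toReal := by
  have h := packing v w hv hw hvw p₀ ℓ hℓ S δ hδ I hI
  have hfin : volume (Metric.cthickening (δ + ℓ) S) ≠ ⊤ :=
    (hS.cthickening.measure_lt_top).ne
  have := ENNReal.toReal_mono hfin h
  rwa [ENNReal.toReal_ofReal (by positivity)] at this

/-- **(P3) Finiteness** of the set of lattice points near a bounded set. -/
theorem lattice_near_finite (v w : E2) (hv : ‖v‖ = 1) (hw : ‖w‖ = 1) (hvw : inner ℝ v w = 0)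
    (p₀ : E2) (ℓ : ℝ) (hℓ : 0 < ℓ) (S : Set E2) (hS : Bornology.IsBounded S) (δ : ℝ) :
    {ij : ℤ × ℤ | ∃ q ∈ S, dist (p₀ + (ℓ * ij.1) • v + (ℓ * ij.2) • w) q ≤ δ}.Finite := by
  obtain ⟨R, hR⟩ := hS.exists_norm_le
  set T : ℝ := |δ| + R + ‖p₀‖ with hT
  set N : ℕ := ⌈T / ℓ⌉₊ with hN
  refine Set.Finite.subset
    ((Finset.Icc (-(N : ℤ)) N ×ˢ Finset.Icc (-(N : ℤ)) N : Finset (ℤ × ℤ)).finite_toSet) ?_
  intro ij hij
  obtain ⟨q, hq, hd⟩ := hij
  have hvv : inner ℝ v v = (1 : ℝ) := by rw [real_inner_self_eq_norm_sq, hv]; norm_num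
  have hww : inner ℝ w w = (1 : ℝ) := by rw [real_inner_self_eq_norm_sq, hw]; norm_num
  have hwv : inner ℝ w v = (0 : ℝ) := by rw [real_inner_comm]; exact hvw
  set x : E2 := (ℓ * (ij.1 : ℝ)) • v + (ℓ * (ij.2 : ℝ)) • w with hx
  have hxn : ‖x‖ ≤ T := by
    have h1 : ‖p₀ + x - q‖ ≤ δ := by
      rw [← dist_eq_norm]; simpa [hx, add_assoc] using hd
    have h2 : x = (p₀ + x - q) + q - p₀ := by abel
    calc ‖x‖ = ‖(p₀ + x - q) + q - p₀‖ := by rw [← h2]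
      _ ≤ ‖(p₀ + x - q) + q‖ + ‖p₀‖ := norm_sub_le _ _
      _ ≤ ‖p₀ + x - q‖ + ‖q‖ + ‖p₀‖ := by gcongr; exact norm_add_le _ _
      _ ≤ |δ| + R + ‖p₀‖ := by gcongr; exact le_trans h1 (le_abs_self δ); exact hR q hq
  have e1 : inner ℝ v x = ℓ * (ij.1 : ℝ) := by
    rw [hx, inner_add_right, inner_smul_right, inner_smul_right, hvv, hvw]; ring
  have e2 : inner ℝ w x = ℓ * (ij.2 : ℝ) := by
    rw [hx, inner_add_right, inner_smul_right, inner_smul_right, hww, hwv]; ring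
  have b1 : |ℓ * (ij.1 : ℝ)| ≤ T := by
    rw [← e1]
    calc |inner ℝ v x| ≤ ‖v‖ * ‖x‖ := abs_real_inner_le_norm _ _
      _ ≤ T := by rw [hv, one_mul]; exact hxn
  have b2 : |ℓ * (ij.2 : ℝ)| ≤ T := by
    rw [← e2]
    calc |inner ℝ w x| ≤ ‖w‖ * ‖x‖ := abs_real_inner_le_norm _ _
      _ ≤ T := by rw [hw, one_mul]; exact hxn
  have hNT : T / ℓ ≤ (N : ℝ) := Nat.le_ceil _
  have key : ∀ k : ℤ, |ℓ * (k : ℝ)| ≤ T → -(N : ℤ) ≤ k ∧ k ≤ (N : ℤ) := by
    intro k hk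
    rw [abs_mul, abs_of_pos hℓ] at hk
    have h3 : |(k : ℝ)| ≤ (N : ℝ) := by
      have : |(k : ℝ)| ≤ T / ℓ := by rw [le_div_iff₀ hℓ]; linarith
      exact le_trans this hNT
    have h4 := abs_le.mp h3
    constructor
    · have : ((-(N : ℤ) : ℤ) : ℝ) ≤ (k : ℝ) := by push_cast; exact h4.1
      exact_mod_cast this
    · have : (k : ℝ) ≤ ((N : ℤ) : ℝ) := by push_cast; exact h4.2
      exact_mod_cast this
  simp only [Finset.coe_product, Finset.coe_Icc, Set.mem_prod, Set.mem_Icc]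
  exact ⟨key _ b1, key _ b2⟩

end Crest.Agent.Helper21
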